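import Vale.Agent.P192.R2.H360.R.Defs2

set_option linter.all false

namespace Vale.Agent.P192.R2.H16

open Vale.Agent.P192 Vale.Agent.P192.H437 Vale.Agent.P192.H593 Vale.Agent.P192.R2.H577
open Vale.Agent.P192.R2.H360.R
open scoped Pointwise

section

variable {H A Q : Type} [Group H] [DecidableEq H] {G : Type} [Group G] {S : Set G} {T : Finset H}
  [MulAction G (Cf H A Q)]

theorem run (hM : MA (H := H) (A := A) (Q := Q) G S T) (z : Cf H A Q) (w : List G)
    (hw : ∀ s ∈ w, s ∈ S ∨ s⁻¹ ∈ S) :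
    z.2.1⁻¹ * (w.prod • z).2.1 ∈ T ^ w.length ∧
      ∀ p, (w.prod • z).1 p ≠ z.1 p → z.2.1⁻¹ * p ∈ T ^ w.length := by
  induction w with
  | nil =>
    refine ⟨?_, ?_⟩
    · simp
    · intro p hp
      exact absurd (by simp) hp
  | cons s w ih =>
    obtain ⟨h1, h2⟩ := ih fun t ht => hw t (by simp [ht])
    have hs := hM.mach s (hw s (by simp))
    rw [List.prod_cons, mul_smul, List.length_cons]
    set u := w.prod • z with hu
    have h3 : u.2.1⁻¹ * (s • u).2.1 ∈ T := hs.1 u
    refine ⟨?_, ?_⟩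
    · have := Finset.mul_mem_mul h1 h3
      rw [← pow_succ] at this
      simpa [mul_assoc] using this
    · intro p hp
      by_cases h4 : (s • u).1 p = u.1 p
      · rw [h4] at hp
        exact Finset.pow_subset_pow_right hM.one (Nat.le_succ _) (h2 p hp)
      · have h5 : u.2.1⁻¹ * p ∈ T := hs.2.1 u p h4
        have := Finset.mul_mem_mul h1 h5
        rw [← pow_succ] at this
        simpa [mul_assoc] using this

theorem same (hM : MA (H := H) (A := A) (Q := Q) G S T) (z z0 : Cf H A Q) (hz : z.2 = z0.2)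
    (l : ℕ) (ht : ∀ p, z.2.1⁻¹ * p ∈ T ^ l → z.1 p = z0.1 p) (w : List G)
    (hw : ∀ s ∈ w, s ∈ S ∨ s⁻¹ ∈ S) (hl : w.length ≤ l) :
    (w.prod • z).2 = (w.prod • z0).2 ∧
      ∀ p, z.2.1⁻¹ * p ∈ T ^ l → (w.prod • z).1 p = (w.prod • z0).1 p := by
  induction w with
  | nil =>
    refine ⟨?_, ?_⟩
    · simpa using hz
    · intro p hp
      simpa using ht p hp
  | cons s w ih =>
    have hw' : ∀ s ∈ w, s ∈ S ∨ s⁻¹ ∈ S := fun t ht => hw t (by simp [ht])
    rw [List.length_cons] at hl
    obtain ⟨h1, h2⟩ := ih hw' (by omega)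
    have h0 := (run hM z w hw').1
    have hs := hM.mach s (hw s (by simp))
    rw [List.prod_cons, mul_smul, mul_smul]
    set u := w.prod • z with hu
    set u0 := w.prod • z0 with hu0
    have e1 : u.2.1 = u0.2.1 := by rw [h1]
    have e2 : u.2.2 = u0.2.2 := by rw [h1]
    obtain ⟨a1, a2, a3⟩ := hs.2.2 u u0 e2 (fun τ hτ => by
      rw [← e1]
      apply h2
      have := Finset.mul_mem_mul h0 hτ
      rw [← pow_succ] at this
      have h3 := Finset.pow_subset_pow_right hM.one hl this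
      simpa [mul_assoc] using h3)
    refine ⟨?_, ?_⟩
    · refine Prod.ext ?_ a2
      have : u.2.1⁻¹ * (s • u).2.1 = u.2.1⁻¹ * (s • u0).2.1 := by rw [a1, e1]
      exact mul_left_cancel this
    · intro p hp
      by_cases h4 : u.2.1⁻¹ * p ∈ T
      · have := a3 _ h4
        rw [mul_inv_cancel_left, e1, mul_inv_cancel_left] at this
        exact this
      · have b1 : (s • u).1 p = u.1 p := by
          by_contra h
          exact h4 (hs.2.1 u p h)
        have b2 : (s • u0).1 p = u0.1 p := by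
          by_contra h
          exact h4 (by rw [e1]; exact hs.2.1 u0 p h)
        rw [b1, b2]
        exact h2 p hp

end

/-- a small orbit is reached by short words -/
theorem reach {G : Type} [Group G] {X : Type} [MulAction G X] (S : Set G)
    (hS : Subgroup.closure S = ⊤) (x : X) (n : ℕ) (h : (MulAction.orbit G x).encard ≤ n) (g : G) :
    ∃ w : List G, (∀ s ∈ w, s ∈ S ∨ s⁻¹ ∈ S) ∧ w.length ≤ n ∧ w.prod • x = g • x := by
  have hfin : (MulAction.orbit G x).Finite :=
    Set.finite_of_encard_le_coe h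
  have hsub : ∀ j, {y | hop S j x y} ⊆ MulAction.orbit G x := by
    rintro j y ⟨w, -, -, rfl⟩
    exact ⟨w.prod, rfl⟩
  have key : ∀ j : ℕ, (∃ i ≤ j, {y | hop S (i + 1) x y} ⊆ {y | hop S i x y}) ∨
      ((j + 1 : ℕ) : ℕ∞) ≤ ({y | hop S j x y} : Set X).encard := by
    intro j
    induction j with
    | zero =>
      right
      have : ({x} : Set X) ⊆ {y | hop S 0 x y} := by
        rintro y rfl
        exact ⟨[], by simp, by simp, by simp⟩
      have := Set.encard_le_encard this
      rwa [Set.encard_singleton] at this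
    | succ j ih =>
      rcases ih with ⟨i, hi, h1⟩ | h1
      · exact Or.inl ⟨i, by omega, h1⟩
      · by_cases h2 : {y | hop S (j + 1) x y} ⊆ {y | hop S j x y}
        · exact Or.inl ⟨j, by omega, h2⟩
        · right
          have h3 : {y | hop S j x y} ⊂ {y | hop S (j + 1) x y} :=
            ⟨fun y hy => hop_le (Nat.le_succ j) hy, h2⟩
          have h4 := Set.Finite.encard_lt_encard (hfin.subset (hsub j)) h3
          calc ((j + 1 + 1 : ℕ) : ℕ∞) = ((j + 1 : ℕ) : ℕ∞) + 1 := by push_cast; rfl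
            _ ≤ ({y | hop S j x y} : Set X).encard + 1 := by gcongr
            _ ≤ _ := Order.add_one_le_of_lt h4
  rcases key n with ⟨i, hi, h1⟩ | h1
  · obtain ⟨w, hw, rfl⟩ := exists_list S hS g
    have h2 : ∀ w : List G, (∀ s ∈ w, s ∈ S ∨ s⁻¹ ∈ S) → hop S i x (w.prod • x) := by
      intro w hw
      induction w with
      | nil => exact ⟨[], by simp, by simp, by simp⟩
      | cons s w ih =>
        have h3 := ih fun t ht => hw t (by simp [ht])
        apply h1
        obtain ⟨v, hv1, hv2, hv3⟩ := h3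
        refine ⟨s :: v, ?_, ?_, ?_⟩
        · intro t ht
          rcases List.mem_cons.1 ht with rfl | ht
          · exact hw _ (by simp)
          · exact hv1 t ht
        · rw [List.length_cons]; omega
        · rw [List.prod_cons, mul_smul, hv3, List.prod_cons, mul_smul]
    exact hop_le hi (h2 w hw)
  · exfalso
    have h2 := (h1.trans (Set.encard_le_encard (hsub n))).trans h
    have h3 : n + 1 ≤ n := by exact_mod_cast h2
    omega

/-- (R7) -/
theorem r7 : R7 := by
  intro h6 H _ _ hH A Q _ _ a0 G _ _ hG S T _ hM D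
  obtain ⟨l6, hl6⟩ := h6 H hH A Q a0 G hG S T hM D
  refine ⟨D + l6 + 3, by omega, ?_⟩
  intro z hz
  classical
  let z0 : Cf H A Q := (fun p => if z.2.1⁻¹ * p ∈ T ^ D then z.1 p else a0, z.2)
  have hz2 : z.2 = z0.2 := rfl
  have hz1 : ∀ p, z.2.1⁻¹ * p ∈ T ^ (D + l6 + 3) → z.1 p = z0.1 p := by
    intro p hp
    change z.1 p = if z.2.1⁻¹ * p ∈ T ^ D then z.1 p else a0
    split_ifs with h
    · rfl
    · by_contra h'
      exact h (hz p h' hp)
  have hz0 : ∀ p, z0.1 p ≠ a0 → z0.2.1⁻¹ * p ∈ T ^ D := by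
    intro p hp
    change (if z.2.1⁻¹ * p ∈ T ^ D then z.1 p else a0) ≠ a0 at hp
    by_contra h
    exact hp (if_neg h)
  have K : ∀ w w' : List G, (∀ s ∈ w, s ∈ S ∨ s⁻¹ ∈ S) → (∀ s ∈ w', s ∈ S ∨ s⁻¹ ∈ S) →
      w.length ≤ l6 + 1 → w'.length ≤ l6 + 1 → w.prod • z0 = w'.prod • z0 →
      w.prod • z = w'.prod • z := by
    intro w w' hw hw' hl hl' he
    obtain ⟨a1, a2⟩ := same hM z z0 hz2 _ hz1 w hw (by omega)
    obtain ⟨b1, b2⟩ := same hM z z0 hz2 _ hz1 w' hw' (by omega)
    refine Prod.ext ?_ (by rw [a1, b1, he])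
    funext p
    by_cases hp : z.2.1⁻¹ * p ∈ T ^ (D + l6 + 3)
    · rw [a2 p hp, b2 p hp, he]
    · have c1 : (w.prod • z).1 p = z.1 p := by
        by_contra h
        exact hp (Finset.pow_subset_pow_right hM.one (by omega) ((run hM z w hw).2 p h))
      have c2 : (w'.prod • z).1 p = z.1 p := by
        by_contra h
        exact hp (Finset.pow_subset_pow_right hM.one (by omega) ((run hM z w' hw').2 p h))
      rw [c1, c2]
  rcases hl6 z0 hz0 with hs | ⟨w0, ⟨w, hw, hwl, rfl⟩, p, hp1, hp2⟩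
  · left
    have hr := reach S hM.gen z0 l6 hs
    have hO : ∀ w : List G, (∀ s ∈ w, s ∈ S ∨ s⁻¹ ∈ S) → ∃ w' : List G,
        (∀ s ∈ w', s ∈ S ∨ s⁻¹ ∈ S) ∧ w'.length ≤ l6 ∧ w'.prod • z = w.prod • z := by
      intro w hw
      induction w with
      | nil => exact ⟨[], by simp, by simp, rfl⟩
      | cons s w ih =>
        obtain ⟨v, hv1, hv2, hv3⟩ := ih fun t ht => hw t (by simp [ht])
        obtain ⟨v', hv1', hv2', hv3'⟩ := hr (s :: v).prod
        refine ⟨v', hv1', hv2', ?_⟩
        have := K v' (s :: v) hv1' (by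
          intro t ht
          rcases List.mem_cons.1 ht with rfl | ht
          · exact hw _ (by simp)
          · exact hv1 t ht) (by omega) (by rw [List.length_cons]; omega) hv3'
        rw [this, List.prod_cons, mul_smul, hv3, List.prod_cons, mul_smul]
    have hch : ∀ y : Cf H A Q, ∃ w : List G, y ∈ MulAction.orbit G z0 →
        (∀ s ∈ w, s ∈ S ∨ s⁻¹ ∈ S) ∧ w.length ≤ l6 ∧ w.prod • z0 = y := by
      intro y
      by_cases hy : y ∈ MulAction.orbit G z0
      · obtain ⟨g, rfl⟩ := hy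
        obtain ⟨w, h1, h2, h3⟩ := hr g
        exact ⟨w, fun _ => ⟨h1, h2, h3⟩⟩
      · exact ⟨[], fun h => absurd h hy⟩
    choose f hf using hch
    have himg : MulAction.orbit G z ⊆ (fun y => (f y).prod • z) '' MulAction.orbit G z0 := by
      rintro _ ⟨g, rfl⟩
      obtain ⟨w, hw, rfl⟩ := exists_list S hM.gen g
      obtain ⟨w', h1, h2, h3⟩ := hO w hw
      have hmem : w'.prod • z0 ∈ MulAction.orbit G z0 := ⟨w'.prod, rfl⟩
      refine ⟨w'.prod • z0, hmem, ?_⟩
      obtain ⟨c1, c2, c3⟩ := hf _ hmem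
      change (f (w'.prod • z0)).prod • z = w.prod • z
      rw [← h3]
      exact K _ _ c1 h1 (by omega) (by omega) c3
    have h1 := (Set.encard_le_encard himg).trans ((Set.encard_image_le _ _).trans hs)
    exact h1.trans (by exact_mod_cast (by omega : l6 ≤ D + l6 + 3))
  · right
    obtain ⟨a1, a2⟩ := same hM z z0 hz2 _ hz1 w hw (by omega)
    obtain ⟨b1, b2⟩ := run hM z w hw
    obtain ⟨c1, c2⟩ := run hM z0 w hw
    have hpl : z.2.1⁻¹ * p ∈ T ^ (D + l6 + 3) := by
      by_cases h : (w.prod • z0).1 p = z0.1 p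
      · rw [h] at hp1
        exact Finset.pow_subset_pow_right hM.one (by omega) (hz0 p hp1)
      · exact Finset.pow_subset_pow_right hM.one (by omega) (c2 p h)
    refine ⟨w.prod • z, ⟨w.prod, rfl⟩, Finset.pow_subset_pow_right hM.one (by omega) b1,
      fun q hq => Finset.pow_subset_pow_right hM.one (by omega) (b2 q hq), p, ?_, ?_, hpl⟩
    · rw [a2 p hpl]; exact hp1
    · rw [a1]; exact hp2

end Vale.Agent.P192.R2.H16
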